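import Mathlib

/-!
Pure type systems with de Bruijn indices.
-/

namespace Vale.Agent.Lib.P340

universe u

/-- Expressions of a pure type system over the set of sorts `S`, bound variables being
de Bruijn indices: `var n`, `sort s`, `app M N`, `lam A M` (for `λ x : A. M`) and
`pi A B` (for `Π x : A. B`). -/
inductive Tm (S : Type u) : Type u
  | var : ℕ → Tm S
  | sort : S → Tm S
  | app : Tm S → Tm S → Tm S
  | lam : Tm S → Tm S → Tm S
  | pi : Tm S → Tm S → Tm S

namespace Tm

variable {S : Type u}

/-- `shift c M`: add one to every variable of `M` whose index is at least `c`. -/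
def shift : ℕ → Tm S → Tm S
  | c, var n => if n < c then var n else var (n + 1)
  | _, sort s => sort s
  | c, app M N => app (shift c M) (shift c N)
  | c, lam A M => lam (shift c A) (shift (c + 1) M)
  | c, pi A B => pi (shift c A) (shift (c + 1) B)

/-- `subst k N M`: replace variable `k` of `M` by `N` and lower the variables above `k`. -/
def subst : ℕ → Tm S → Tm S → Tm S
  | k, N, var n => if n < k then var n else if n = k then N else var (n - 1)
  | _, _, sort s => sort s
  | k, N, app M P => app (subst k N M) (subst k N P)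
  | k, N, lam A M => lam (subst k N A) (subst (k + 1) (shift 0 N) M)
  | k, N, pi A B => pi (subst k N A) (subst (k + 1) (shift 0 N) B)

end Tm

open Tm

/-- One-step beta reduction: the compatible closure of `(λ x : A. M) N → M[x := N]`;
a step may occur in any subexpression, including domains. -/
inductive Step {S : Type u} : Tm S → Tm S → Prop
  | beta (A M N : Tm S) : Step (app (lam A M) N) (subst 0 N M)
  | appL {M M' : Tm S} (N : Tm S) : Step M M' → Step (app M N) (app M' N)
  | appR (M : Tm S) {N N' : Tm S} : Step N N' → Step (app M N) (app M N')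
  | lamL {A A' : Tm S} (M : Tm S) : Step A A' → Step (lam A M) (lam A' M)
  | lamR (A : Tm S) {M M' : Tm S} : Step M M' → Step (lam A M) (lam A M')
  | piL {A A' : Tm S} (B : Tm S) : Step A A' → Step (pi A B) (pi A' B)
  | piR (A : Tm S) {B B' : Tm S} : Step B B' → Step (pi A B) (pi A B')

/-- Beta conversion: the equivalence relation generated by one-step reduction. -/
def Conv {S : Type u} : Tm S → Tm S → Prop := Relation.EqvGen Step

/-- The typing relation `Γ ⊢ M : B` of the specification `(S, Ax, Ru)`; a context is a list of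
types, the most recently declared variable (index `0`) first. -/
inductive Typing {S : Type u} (Ax : S → S → Prop) (Ru : S → S → S → Prop) :
    List (Tm S) → Tm S → Tm S → Prop
  | axiom_ {s₁ s₂ : S} : Ax s₁ s₂ → Typing Ax Ru [] (sort s₁) (sort s₂)
  | variable_ {Γ : List (Tm S)} {A : Tm S} {s : S} :
      Typing Ax Ru Γ A (sort s) → Typing Ax Ru (A :: Γ) (var 0) (shift 0 A)
  | weakening {Γ : List (Tm S)} {M B A : Tm S} {s : S} :
      Typing Ax Ru Γ M B → Typing Ax Ru Γ A (sort s) →
      Typing Ax Ru (A :: Γ) (shift 0 M) (shift 0 B)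
  | product {Γ : List (Tm S)} {A B : Tm S} {s₁ s₂ s₃ : S} :
      Typing Ax Ru Γ A (sort s₁) → Typing Ax Ru (A :: Γ) B (sort s₂) → Ru s₁ s₂ s₃ →
      Typing Ax Ru Γ (pi A B) (sort s₃)
  | abstraction {Γ : List (Tm S)} {A M B : Tm S} {s : S} :
      Typing Ax Ru (A :: Γ) M B → Typing Ax Ru Γ (pi A B) (sort s) →
      Typing Ax Ru Γ (lam A M) (pi A B)
  | application {Γ : List (Tm S)} {M N A B : Tm S} :
      Typing Ax Ru Γ M (pi A B) → Typing Ax Ru Γ N A →
      Typing Ax Ru Γ (app M N) (subst 0 N B)
  | conversion {Γ : List (Tm S)} {M A B : Tm S} {s : S} :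
      Typing Ax Ru Γ M A → Typing Ax Ru Γ B (sort s) → Conv A B → Typing Ax Ru Γ M B

/-- An expression is legal if it is the subject or the type of a derivable judgment. -/
def Legal {S : Type u} (Ax : S → S → Prop) (Ru : S → S → S → Prop) (M : Tm S) : Prop :=
  ∃ (Γ : List (Tm S)) (N : Tm S), Typing Ax Ru Γ M N ∨ Typing Ax Ru Γ N M

/-- `M` is beta normal. -/
def Normal {S : Type u} (M : Tm S) : Prop := ∀ N, ¬ Step M N

/-- The specification is weakly normalizing: every legal expression reduces to a normal form. -/
def WeaklyNormalizing {S : Type u} (Ax : S → S → Prop) (Ru : S → S → S → Prop) : Prop :=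
  ∀ M, Legal Ax Ru M → ∃ N, Relation.ReflTransGen Step M N ∧ Normal N

/-- The specification is strongly normalizing: no legal expression starts an infinite
reduction sequence. -/
def StronglyNormalizing {S : Type u} (Ax : S → S → Prop) (Ru : S → S → S → Prop) : Prop :=
  ∀ M, Legal Ax Ru M → ¬ ∃ r : ℕ → Tm S, r 0 = M ∧ ∀ n, Step (r n) (r (n + 1))

end Vale.Agent.Lib.P340
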