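import Vale.Agent.Lib.P340.Defs

namespace Vale.Agent.Lib.P340

universe u v

open Tm

variable {S : Type u} {S' : Type v}

/-- rename the sorts of an expression -/
def Tm.map (φ : S → S') : Tm S → Tm S'
  | var n => var n
  | sort s => sort (φ s)
  | app M N => app (Tm.map φ M) (Tm.map φ N)
  | lam A M => lam (Tm.map φ A) (Tm.map φ M)
  | pi A B => pi (Tm.map φ A) (Tm.map φ B)

lemma map_shift (φ : S → S') (c : ℕ) (M : Tm S) :
    Tm.map φ (shift c M) = shift c (Tm.map φ M) := by
  induction M generalizing c with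
  | var n => simp only [shift, Tm.map]; split_ifs <;> rfl
  | sort s => rfl
  | app M N ihM ihN => simp [shift, Tm.map, ihM, ihN]
  | lam A M ihA ihM => simp [shift, Tm.map, ihA, ihM]
  | pi A B ihA ihB => simp [shift, Tm.map, ihA, ihB]

lemma map_subst (φ : S → S') (k : ℕ) (N M : Tm S) :
    Tm.map φ (subst k N M) = subst k (Tm.map φ N) (Tm.map φ M) := by
  induction M generalizing k N with
  | var n => simp only [subst, Tm.map]; split_ifs <;> rfl
  | sort s => rfl
  | app M P ihM ihP => simp [subst, Tm.map, ihM, ihP]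
  | lam A M ihA ihM => simp [subst, Tm.map, ihA, ihM, map_shift]
  | pi A B ihA ihB => simp [subst, Tm.map, ihA, ihB, map_shift]

lemma map_map {S'' : Type*} (φ : S → S') (ψ : S' → S'') (M : Tm S) :
    Tm.map ψ (Tm.map φ M) = Tm.map (ψ ∘ φ) M := by
  induction M with
  | var n => rfl
  | sort s => rfl
  | app M N ihM ihN => simp [Tm.map, ihM, ihN]
  | lam A M ihA ihM => simp [Tm.map, ihA, ihM]
  | pi A B ihA ihB => simp [Tm.map, ihA, ihB]

lemma map_id' (φ : S → S) (h : ∀ s, φ s = s) (M : Tm S) : Tm.map φ M = M := by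
  induction M with
  | var n => rfl
  | sort s => simp [Tm.map, h]
  | app M N ihM ihN => simp [Tm.map, ihM, ihN]
  | lam A M ihA ihM => simp [Tm.map, ihA, ihM]
  | pi A B ihA ihB => simp [Tm.map, ihA, ihB]

lemma Step.map (φ : S → S') {M N : Tm S} (h : Step M N) : Step (Tm.map φ M) (Tm.map φ N) := by
  induction h with
  | beta A M N => simp only [Tm.map, map_subst]; exact Step.beta _ _ _
  | appL N _ ih => exact Step.appL _ ih
  | appR M _ ih => exact Step.appR _ ih
  | lamL M _ ih => exact Step.lamL _ ih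
  | lamR A _ ih => exact Step.lamR _ ih
  | piL B _ ih => exact Step.piL _ ih
  | piR A _ ih => exact Step.piR _ ih

lemma Steps.map (φ : S → S') {M N : Tm S} (h : Relation.ReflTransGen Step M N) :
    Relation.ReflTransGen Step (Tm.map φ M) (Tm.map φ N) := by
  induction h with
  | refl => exact Relation.ReflTransGen.refl
  | tail _ h2 ih => exact ih.tail (h2.map φ)

lemma Conv.map (φ : S → S') {M N : Tm S} (h : Conv M N) : Conv (Tm.map φ M) (Tm.map φ N) := by
  induction h with
  | rel _ _ h => exact Relation.EqvGen.rel _ _ (h.map φ)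
  | refl _ => exact Relation.EqvGen.refl _
  | symm _ _ _ ih => exact Relation.EqvGen.symm _ _ ih
  | trans _ _ _ _ _ ih1 ih2 => exact Relation.EqvGen.trans _ _ _ ih1 ih2

/-- a step from a renamed expression comes with a step from the expression itself -/
lemma step_of_map_step (φ : S → S') (M : Tm S) {X : Tm S'} (h : Step (Tm.map φ M) X) :
    ∃ Y, Step M Y := by
  induction M generalizing X with
  | var n => cases h
  | sort s => cases h
  | app M N ihM ihN =>
    cases M with
    | lam A P => exact ⟨_, Step.beta A P N⟩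
    | var n =>
      cases h with
      | appL _ h' => cases h'
      | appR _ h' => obtain ⟨Y, hY⟩ := ihN h'; exact ⟨_, Step.appR _ hY⟩
    | sort s =>
      cases h with
      | appL _ h' => cases h'
      | appR _ h' => obtain ⟨Y, hY⟩ := ihN h'; exact ⟨_, Step.appR _ hY⟩
    | app P Q =>
      cases h with
      | appL _ h' => obtain ⟨Y, hY⟩ := ihM h'; exact ⟨_, Step.appL _ hY⟩
      | appR _ h' => obtain ⟨Y, hY⟩ := ihN h'; exact ⟨_, Step.appR _ hY⟩
    | pi P Q =>
      cases h with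
      | appL _ h' => obtain ⟨Y, hY⟩ := ihM h'; exact ⟨_, Step.appL _ hY⟩
      | appR _ h' => obtain ⟨Y, hY⟩ := ihN h'; exact ⟨_, Step.appR _ hY⟩
  | lam A M ihA ihM =>
    cases h with
    | lamL _ h' => obtain ⟨Y, hY⟩ := ihA h'; exact ⟨_, Step.lamL _ hY⟩
    | lamR _ h' => obtain ⟨Y, hY⟩ := ihM h'; exact ⟨_, Step.lamR _ hY⟩
  | pi A B ihA ihB =>
    cases h with
    | piL _ h' => obtain ⟨Y, hY⟩ := ihA h'; exact ⟨_, Step.piL _ hY⟩
    | piR _ h' => obtain ⟨Y, hY⟩ := ihB h'; exact ⟨_, Step.piR _ hY⟩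

lemma Normal.map (φ : S → S') {M : Tm S} (h : Normal M) : Normal (Tm.map φ M) := by
  intro X hX
  obtain ⟨Y, hY⟩ := step_of_map_step φ M hX
  exact h Y hY

/-- Typing derivations are transported along morphisms of specifications. -/
lemma Typing.map {Ax : S → S → Prop} {Ru : S → S → S → Prop}
    {Ax' : S' → S' → Prop} {Ru' : S' → S' → S' → Prop} (φ : S → S')
    (hA : ∀ a b, Ax a b → Ax' (φ a) (φ b)) (hR : ∀ a b c, Ru a b c → Ru' (φ a) (φ b) (φ c))
    {Γ : List (Tm S)} {M B : Tm S} (h : Typing Ax Ru Γ M B) :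
    Typing Ax' Ru' (Γ.map (Tm.map φ)) (Tm.map φ M) (Tm.map φ B) := by
  induction h with
  | axiom_ h => exact Typing.axiom_ (hA _ _ h)
  | variable_ _ ih =>
    simp only [List.map_cons, map_shift]
    exact Typing.variable_ ih
  | weakening _ _ ih1 ih2 =>
    simp only [List.map_cons, map_shift]
    exact Typing.weakening ih1 ih2
  | product _ _ hr ih1 ih2 => exact Typing.product ih1 ih2 (hR _ _ _ hr)
  | abstraction _ _ ih1 ih2 => exact Typing.abstraction ih1 ih2
  | application _ _ ih1 ih2 =>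
    simp only [map_subst]
    exact Typing.application ih1 ih2
  | conversion _ _ hc ih1 ih2 => exact Typing.conversion ih1 ih2 (hc.map φ)

lemma Typing.mono {Ax Ax' : S → S → Prop} {Ru Ru' : S → S → S → Prop}
    (hA : ∀ a b, Ax a b → Ax' a b) (hR : ∀ a b c, Ru a b c → Ru' a b c)
    {Γ : List (Tm S)} {M B : Tm S} (h : Typing Ax Ru Γ M B) : Typing Ax' Ru' Γ M B := by
  have := Typing.map (Ax' := Ax') (Ru' := Ru') id hA hR h
  have hid : ∀ M : Tm S, Tm.map id M = M := fun M => map_id' id (fun _ => rfl) M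
  have hl : Γ.map (Tm.map id) = Γ := by
    have : (Tm.map id : Tm S → Tm S) = id := funext hid
    rw [this]; simp
  rwa [hid, hid, hl] at this

lemma Legal.map {Ax : S → S → Prop} {Ru : S → S → S → Prop}
    {Ax' : S' → S' → Prop} {Ru' : S' → S' → S' → Prop} (φ : S → S')
    (hA : ∀ a b, Ax a b → Ax' (φ a) (φ b)) (hR : ∀ a b c, Ru a b c → Ru' (φ a) (φ b) (φ c))
    {M : Tm S} (h : Legal Ax Ru M) : Legal Ax' Ru' (Tm.map φ M) := by
  obtain ⟨Γ, N, h | h⟩ := h
  · exact ⟨_, _, Or.inl (Typing.map φ hA hR h)⟩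
  · exact ⟨_, _, Or.inr (Typing.map φ hA hR h)⟩

/-- Every derivation uses only finitely many sorts in its instances of the axiom and product
rules. -/
lemma Typing.exists_finite [DecidableEq S] {Ax : S → S → Prop} {Ru : S → S → S → Prop}
    {Γ : List (Tm S)} {M B : Tm S} (h : Typing Ax Ru Γ M B) :
    ∃ F : Finset S, F.Nonempty ∧
      Typing (fun a b => Ax a b ∧ a ∈ F ∧ b ∈ F)
        (fun a b c => Ru a b c ∧ a ∈ F ∧ b ∈ F ∧ c ∈ F) Γ M B := by
  have mono : ∀ {F G : Finset S} {Γ : List (Tm S)} {M B : Tm S}, F ⊆ G →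
      Typing (fun a b => Ax a b ∧ a ∈ F ∧ b ∈ F)
        (fun a b c => Ru a b c ∧ a ∈ F ∧ b ∈ F ∧ c ∈ F) Γ M B →
      Typing (fun a b => Ax a b ∧ a ∈ G ∧ b ∈ G)
        (fun a b c => Ru a b c ∧ a ∈ G ∧ b ∈ G ∧ c ∈ G) Γ M B := by
    intro F G Γ M B hFG h
    exact Typing.mono (fun a b ⟨h1, h2, h3⟩ => ⟨h1, hFG h2, hFG h3⟩)
      (fun a b c ⟨h1, h2, h3, h4⟩ => ⟨h1, hFG h2, hFG h3, hFG h4⟩) h
  induction h with
  | @axiom_ s₁ s₂ h =>
    exact ⟨{s₁, s₂}, ⟨s₁, by simp⟩, Typing.axiom_ ⟨h, by simp, by simp⟩⟩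
  | variable_ _ ih =>
    obtain ⟨F, hF, h⟩ := ih
    exact ⟨F, hF, Typing.variable_ h⟩
  | weakening _ _ ih1 ih2 =>
    obtain ⟨F, hF, h1⟩ := ih1
    obtain ⟨G, _, h2⟩ := ih2
    exact ⟨F ∪ G, hF.mono Finset.subset_union_left,
      Typing.weakening (mono Finset.subset_union_left h1) (mono Finset.subset_union_right h2)⟩
  | @product Γ A B s₁ s₂ s₃ _ _ hr ih1 ih2 =>
    obtain ⟨F, hF, h1⟩ := ih1
    obtain ⟨G, _, h2⟩ := ih2
    refine ⟨F ∪ G ∪ {s₁, s₂, s₃}, (hF.mono Finset.subset_union_left).mono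
      Finset.subset_union_left, Typing.product
      (mono (Finset.subset_union_left.trans Finset.subset_union_left) h1)
      (mono (Finset.subset_union_right.trans Finset.subset_union_left) h2)
      ⟨hr, by simp, by simp, by simp⟩⟩
  | abstraction _ _ ih1 ih2 =>
    obtain ⟨F, hF, h1⟩ := ih1
    obtain ⟨G, _, h2⟩ := ih2
    exact ⟨F ∪ G, hF.mono Finset.subset_union_left,
      Typing.abstraction (mono Finset.subset_union_left h1) (mono Finset.subset_union_right h2)⟩
  | application _ _ ih1 ih2 =>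
    obtain ⟨F, hF, h1⟩ := ih1
    obtain ⟨G, _, h2⟩ := ih2
    exact ⟨F ∪ G, hF.mono Finset.subset_union_left,
      Typing.application (mono Finset.subset_union_left h1) (mono Finset.subset_union_right h2)⟩
  | conversion _ _ hc ih1 ih2 =>
    obtain ⟨F, hF, h1⟩ := ih1
    obtain ⟨G, _, h2⟩ := ih2
    exact ⟨F ∪ G, hF.mono Finset.subset_union_left,
      Typing.conversion (mono Finset.subset_union_left h1) (mono Finset.subset_union_right h2) hc⟩

/-- **Reduction to finite specifications.**  If every weakly normalizing pure type system whose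
set of sorts is some `Fin k` is strongly normalizing, then every weakly normalizing pure type
system is strongly normalizing. -/
theorem finite_reduction
    (hfin : ∀ (k : ℕ) (Ax : Fin k → Fin k → Prop) (Ru : Fin k → Fin k → Fin k → Prop),
      WeaklyNormalizing Ax Ru → StronglyNormalizing Ax Ru)
    (S : Type u) (Ax : S → S → Prop) (Ru : S → S → S → Prop)
    (hWN : WeaklyNormalizing Ax Ru) : StronglyNormalizing Ax Ru := by
  classical
  intro M hM ⟨r, hr0, hr⟩
  -- a finite set of sorts carrying a derivation that makes `M` legal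
  obtain ⟨F, ⟨s0, hs0⟩, hMF⟩ : ∃ F : Finset S, F.Nonempty ∧
      Legal (fun a b => Ax a b ∧ a ∈ F ∧ b ∈ F)
        (fun a b c => Ru a b c ∧ a ∈ F ∧ b ∈ F ∧ c ∈ F) M := by
    obtain ⟨Γ, N, h | h⟩ := hM
    · obtain ⟨F, hF, h'⟩ := h.exists_finite
      exact ⟨F, hF, Γ, N, Or.inl h'⟩
    · obtain ⟨F, hF, h'⟩ := h.exists_finite
      exact ⟨F, hF, Γ, N, Or.inr h'⟩
  let e : F ≃ Fin F.card := F.equivFin
  let incl : Fin F.card → S := fun i => (e.symm i).1
  let retr : S → Fin F.card := fun s => if h : s ∈ F then e ⟨s, h⟩ else e ⟨s0, hs0⟩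
  have hri : ∀ i, retr (incl i) = i := by
    intro i
    simp only [retr, incl]
    rw [dif_pos (e.symm i).2]
    simp
  have hir : ∀ s ∈ F, incl (retr s) = s := by
    intro s hs
    simp only [retr, incl]
    rw [dif_pos hs]
    simp
  let Ax' : Fin F.card → Fin F.card → Prop := fun i j => Ax (incl i) (incl j)
  let Ru' : Fin F.card → Fin F.card → Fin F.card → Prop :=
    fun i j l => Ru (incl i) (incl j) (incl l)
  have hWN' : WeaklyNormalizing Ax' Ru' := by
    intro P hP
    have hP' : Legal Ax Ru (Tm.map incl P) :=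
      Legal.map incl (fun _ _ h => h) (fun _ _ _ h => h) hP
    obtain ⟨N, hN1, hN2⟩ := hWN _ hP'
    refine ⟨Tm.map retr N, ?_, hN2.map retr⟩
    have := Steps.map retr hN1
    rwa [map_map, map_id' (retr ∘ incl) hri] at this
  have hSN' := hfin _ Ax' Ru' hWN'
  have hM' : Legal Ax' Ru' (Tm.map retr M) := by
    refine Legal.map retr ?_ ?_ hMF
    · rintro a b ⟨h, ha, hb⟩
      simp only [Ax']
      rwa [hir a ha, hir b hb]
    · rintro a b c ⟨h, ha, hb, hc⟩
      simp only [Ru']
      rwa [hir a ha, hir b hb, hir c hc]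
  exact hSN' _ hM' ⟨fun n => Tm.map retr (r n), by simp [hr0], fun n => (hr n).map retr⟩

end Vale.Agent.Lib.P340
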